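import Vale.Agent.Lib.P216.Product

/-!
# P216: product metrics have infinitely many closed geodesics

Let `Z` be a metric space that is the Pythagorean product of two metric spaces `X` and `Y`
(for instance a Riemannian product with its Riemannian distance). If `X` and `Y` each carry
a closed geodesic, then `Z` carries a sequence of closed geodesics with pairwise distinct
images.
-/

namespace Vale.Agent.Results.P216.ProductMetric

open Vale.Agent.Lib.P216

theorem result {X Y Z : Type*} [MetricSpace X] [MetricSpace Y] [MetricSpace Z] (e : Z ≃ X × Y)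
    (he : ∀ p q : Z, dist p q ^ 2 = dist (e p).1 (e q).1 ^ 2 + dist (e p).2 (e q).2 ^ 2)
    (hX : ∃ c : ℝ → X, IsClosedGeodesic c) (hY : ∃ c : ℝ → Y, IsClosedGeodesic c) :
    ∃ γ : ℕ → ℝ → Z, (∀ m, IsClosedGeodesic (γ m)) ∧
      Function.Injective (fun m => Set.range (γ m)) :=
  main e he hX hY

end Vale.Agent.Results.P216.ProductMetric
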